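import Mathlib
import Vale.Agent.P267.H178.Final

open Filter Metric Set Topology
open scoped Manifold ContDiff

namespace Vale.Agent.Results.P267.TameWindows

open Vale.Agent.P267.H178

/-- Let `X` be a compact complex manifold and `p : M → X` an infinite cyclic covering, `M` connected,
with generator `g` of the deck group.

For every integer `m` the following are equivalent:
* some power-`m` pluricanonical section `s ≠ 0` on `M` is automorphic, `g^* s = l s` (equivalently,
  `K_X^m ⊗ L` has a nonzero holomorphic section for a flat line bundle `L` on `X` given by the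
  covering);
* one end of `M` carries a holomorphic section of `K_M^m` of finite exponential type;
* there are tame windows of sections of `K_M^m` that do not tend to zero.

Moreover the same holds for nonconstant holomorphic functions. -/
theorem result {E : Type*} [NormedAddCommGroup E] [NormedSpace ℂ E] [FiniteDimensional ℂ E]
    {X : Type*} [TopologicalSpace X] [ChartedSpace E X] [IsManifold 𝓘(ℂ, E) ω X] [CompactSpace X]
    {M : Type*} [TopologicalSpace M] [ChartedSpace E M] [IsManifold 𝓘(ℂ, E) ω M] [ConnectedSpace M]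
    (c : CyclicCover E X M) :
    (∀ m : ℤ, List.TFAE [
      ∃ (l : ℂ) (s : M → ℂ), l ≠ 0 ∧ HolSec E m univ s ∧ s ≠ 0 ∧ pull E m c.g s = l • s,
      ∃ (V : Set M) (s : M → ℂ), EndSec E c.g m V s,
      ∃ (W : ℕ → Set M) (s : ℕ → M → ℂ) (x₀ : M), TameSec E c.g m W s ∧ ∀ n, 1 ≤ ‖s n x₀‖]) ∧
    List.TFAE [
      ∃ (l : ℂ) (H : M → ℂ), l ≠ 0 ∧ ‖l‖ ≠ 1 ∧ MDifferentiable 𝓘(ℂ, E) 𝓘(ℂ, ℂ) H ∧
        (∃ x y, H x ≠ H y) ∧ ∀ x, H (c.g x) = l * H x,
      ∃ (V : Set M) (h : M → ℂ), EndFun E c.g V h,
      ∃ (W : ℕ → Set M) (h : ℕ → M → ℂ) (x₀ x₁ : M), TameFun E c.g W h ∧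
        ∀ n, 1 ≤ ‖h n x₀ - h n x₁‖] :=
  ⟨fun m => sections_tfae c m, functions_tfae c⟩

end Vale.Agent.Results.P267.TameWindows
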